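import Vale.Agent.P086.Haar
import Vale.Agent.P086.Stmt

namespace Vale.Agent.Results.P086.Isomorphic

open Vale.Agent.P086

theorem result (α β : Type) [Countable α] [Countable β] [Nontrivial α] [Nontrivial β] :
    IsoVN (leftReg (FreeGroup α)) (leftReg (FreeGroup β)) :=
  free_group_factors α β

end Vale.Agent.Results.P086.Isomorphic
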